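import Vale.Agent.P032.Words6.H704.Gen6
import Vale.Agent.P032.S5.H555.Cut
import Vale.Agent.P032.Words6.H704.NoK33
import Vale.Agent.P032.S5.H360.Degree

/-!
# P032: the graph of broken pairs of a six-coloured centre

`MC T z` is symmetric and irreflexive, no colour is joined to all others but one, and no two disjoint
nonempty sets with five colours together are completely joined.
-/

open Set Filter Topology Metric

noncomputable section

namespace Vale.Agent.P032.Words6.H497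

open Vale.Agent.P032.Six Vale.Agent.P032.S5.H767 Vale.Agent.P032.Words6.H704

variable {U : Fin 6 → Set ℂ} {T : ℂ → Set (Fin 6)} {z : ℂ}

theorem mc_symm {a b : Fin 6} (h : MC T z a b) : MC T z b a := by
  obtain ⟨h1, q, h2, h3⟩ := h
  exact ⟨h1.symm, q, h2, by rw [h3, Set.pair_comm]⟩

theorem mc_irr (a : Fin 6) : ¬ MC T z a a := fun h => h.1 rfl

theorem mc_act (hact : ∀ i, ∃ q, dist q z = 1 ∧ i ∈ T q ∧ (T q).ncard = 2) (a : Fin 6) :
    ∃ b, MC T z a b := by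
  obtain ⟨q, hq, ha, h2⟩ := hact a
  obtain ⟨x, y, hxy, hT⟩ := Set.ncard_eq_two.1 h2
  rw [hT] at ha
  rcases ha with rfl | ha
  · exact ⟨y, hxy, q, hq, hT⟩
  · have ha : a = y := ha
    subst ha
    exact ⟨x, hxy.symm, q, hq, by rw [hT, Set.pair_comm]⟩

theorem univ_of (C : Six6 U T z) : T z = univ := Set.eq_univ_of_forall C.all

theorem card_of (C : Six6 U T z) : (T z).ncard = 6 := by
  rw [univ_of C, Set.ncard_univ, Nat.card_eq_fintype_card, Fintype.card_fin]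

theorem mc_deg (C : Six6 U T z)
    (hmin : ∀ z, 4 ≤ (T z).ncard → ∀ s, s ⊆ T z → s ≠ T z →
      ¬ ∀ᶠ w in 𝓝 z, ∃ i ∈ s, w ∈ U i ∨ (w ∈ XX U ∧ i ∈ Pal U w)) (v u : Fin 6) (hvu : v ≠ u) :
    ¬ ∀ w, w ≠ v → w ≠ u → MC T z v w := by
  intro hcon
  refine C.irr.degree hmin (z := z) (by rw [card_of C]; norm_num) (a := v) (d := u) (C.all _)
    (C.all _) hvu ?_
  intro j _ hja hjd
  obtain ⟨-, q, hq⟩ := hcon j hja hjd
  exact ⟨q, hq⟩

theorem mc_cut5 (C : Six6 U T z)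
    (hmin : ∀ z, 4 ≤ (T z).ncard → ∀ s, s ⊆ T z → s ≠ T z →
      ¬ ∀ᶠ w in 𝓝 z, ∃ i ∈ s, w ∈ U i ∨ (w ∈ XX U ∧ i ∈ Pal U w)) {A B : Set (Fin 6)}
    (hA : A.Nonempty) (hB : B.Nonempty) (hAB : Disjoint A B) (hA2 : A.ncard ≤ 2)
    (h5 : (A ∪ B).ncard = 5) (hb : ∀ x ∈ A, ∀ y ∈ B, MC T z x y) : False := by
  have h1 : ((A ∪ B)ᶜ).ncard = 1 := by
    rw [Set.ncard_compl _ (Set.toFinite _), h5, Nat.card_eq_fintype_card, Fintype.card_fin]
  obtain ⟨x, hx⟩ := Set.ncard_eq_one.1 h1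
  have hx0 : x ∈ (A ∪ B)ᶜ := by rw [hx]; rfl
  refine C.irr.no_cut hmin (z := z) (x := x) (A := A) (B := B) (by rw [card_of C]; norm_num) ?_
    (fun h => hx0 (Or.inl h)) (fun h => hx0 (Or.inr h)) hAB hA hB hA2
    (fun a ha b hb' => (hb a ha b hb').2)
  rw [univ_of C]
  refine (Set.eq_univ_of_forall fun i => ?_).symm
  by_cases hi : i ∈ A ∪ B
  · exact Or.inr hi
  · have h2 : i ∈ (A ∪ B)ᶜ := hi
    rw [hx] at h2
    exact Or.inl h2

theorem mc_cut2 (C : Six6 U T z)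
    (hmin : ∀ z, 4 ≤ (T z).ncard → ∀ s, s ⊆ T z → s ≠ T z →
      ¬ ∀ᶠ w in 𝓝 z, ∃ i ∈ s, w ∈ U i ∨ (w ∈ XX U ∧ i ∈ Pal U w)) {A B : Set (Fin 6)}
    (hA : A.Nonempty) (hAB : Disjoint A B) (hA2 : A.ncard ≤ 2)
    (h5 : 5 ≤ (A ∪ B).ncard) (hb : ∀ x ∈ A, ∀ y ∈ B, MC T z x y) : False := by
  have hc := Set.ncard_union_eq hAB (Set.toFinite _) (Set.toFinite _)
  have h6 : (A ∪ B).ncard ≤ 6 := by
    have := Set.ncard_le_ncard (Set.subset_univ (A ∪ B)) (Set.toFinite _)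
    rwa [Set.ncard_univ, Nat.card_eq_fintype_card, Fintype.card_fin] at this
  have hBn : B.Nonempty := by
    rw [← Set.ncard_pos (Set.toFinite _)]; omega
  rcases h5.eq_or_lt with h7 | h7
  · exact mc_cut5 C hmin hA hBn hAB hA2 h7.symm hb
  · obtain ⟨y, hy⟩ := hBn
    have h8 : (B \ {y}).ncard + 1 = B.ncard :=
      Set.ncard_sdiff_singleton_add_one hy (Set.toFinite _)
    have hd : Disjoint A (B \ {y}) := hAB.mono_right sdiff_subset
    refine mc_cut5 C hmin (B := B \ {y}) hA ?_ hd hA2 ?_ fun a ha b hb' => hb a ha b hb'.1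
    · rw [← Set.ncard_pos (Set.toFinite _)]; omega
    · rw [Set.ncard_union_eq hd (Set.toFinite _) (Set.toFinite _)]; omega

/-- **No cuts.** -/
theorem mc_cut (C : Six6 U T z)
    (hmin : ∀ z, 4 ≤ (T z).ncard → ∀ s, s ⊆ T z → s ≠ T z →
      ¬ ∀ᶠ w in 𝓝 z, ∃ i ∈ s, w ∈ U i ∨ (w ∈ XX U ∧ i ∈ Pal U w)) (X Y : Set (Fin 6))
    (hX : X.Nonempty) (hY : Y.Nonempty) (hXY : Disjoint X Y)
    (h5 : 5 ≤ (X ∪ Y).ncard) : ¬ ∀ x ∈ X, ∀ y ∈ Y, MC T z x y := by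
  intro hb
  by_cases h1 : X.ncard ≤ 2
  · exact mc_cut2 C hmin hX hXY h1 h5 hb
  by_cases h2 : Y.ncard ≤ 2
  · exact mc_cut2 C hmin hY hXY.symm h2 (by rwa [Set.union_comm]) fun y hy x hx =>
      mc_symm (hb x hx y hy)
  have hc := Set.ncard_union_eq hXY (Set.toFinite _) (Set.toFinite _)
  have h6 : (X ∪ Y).ncard ≤ 6 := by
    have := Set.ncard_le_ncard (Set.subset_univ (X ∪ Y)) (Set.toFinite _)
    rwa [Set.ncard_univ, Nat.card_eq_fintype_card, Fintype.card_fin] at this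
  have h7 : X ∪ Y = univ := (Set.eq_univ_iff_ncard _).2 (by
    rw [Nat.card_eq_fintype_card, Fintype.card_fin]; omega)
  exact C.irr.no_k33 hmin (z := z) (A := X) (B := Y) (by rw [univ_of C, h7]) hXY (by omega)
    (by omega) fun a ha b hb' => (hb a ha b hb').2

end Vale.Agent.P032.Words6.H497
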